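import Vale.Agent.P367.CMain

/-! # P367: the message passing value reaches the ground state energy of the SK model -/

namespace Vale.Agent.Results.P367.Iamp

open Vale.Agent.P367

theorem result : ∀ ε : ℝ, 0 < ε → ∃ (K : ℕ) (M : ℕ → (Fin K → ℝ) → ℝ), Mart K M ∧
    ∀ n : ℕ, 1 ≤ n → gse n ≤ val K M + ε := classical

end Vale.Agent.Results.P367.Iamp
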