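import Vale.Agent.P367.QAll

/-! # P367: QAOA reaches the ground state energy of the SK model as the depth grows -/

namespace Vale.Agent.Results.P367.Qaoa

open Vale.Agent.P367 Filter Topology

theorem result : Tendsto gse atTop (𝓝 Pstar) ∧
    (∀ (p : ℕ) (γ β : Fin p → ℝ), Tendsto (energy γ β) atTop (𝓝 (vLim γ β))) ∧
    (∀ p : ℕ, IsLUB {v | ∃ γ β : Fin p → ℝ, v = vLim γ β} (Qp p)) ∧
    Tendsto Qp atTop (𝓝 Pstar) := qaoa

end Vale.Agent.Results.P367.Qaoa
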